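import Vale.Agent.P216.H949.Grp2

/-!
# P216, consequences of a malnormal infinite cyclic subgroup

`Mal.normal`: a normal subgroup with nontrivial centralizer which meets `⟨a⟩` forces `G = ⟨a⟩`
(contains: centre, direct products, abelian normal subgroups, finite normal subgroups, FC-centre).
`Mal.virtProd`: no subgroup of finite index is a nontrivial direct product.
-/

set_option linter.all false

namespace Vale.Agent.P216.H949

variable {G : Type*} [Group G]

/-- A normal subgroup `N` which contains a nonzero power of `a` and has a nontrivial centralizer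
in `G` forces `G = ⟨a⟩`. -/
theorem Mal.normal {a : G} (h : Mal a) (N : Subgroup G) (hN : N.Normal)
    {z : G} (hz1 : z ≠ 1) (hzc : ∀ y ∈ N, z * y = y * z)
    {k : ℤ} (hk : k ≠ 0) (hkN : a ^ k ∈ N) : Subgroup.zpowers a = ⊤ := by
  obtain ⟨m, hm⟩ := h.selfC.zpow hk (hzc _ hkN)
  have hm0 : m ≠ 0 := by
    rintro rfl
    exact hz1 (by rw [hm, zpow_zero])
  rw [eq_top_iff]
  intro t _
  have h1 : (t * z * t⁻¹) * a ^ k = a ^ k * (t * z * t⁻¹) := by
    have h2 : t⁻¹ * a ^ k * t ∈ N := by
      have := hN.conj_mem (a ^ k) hkN t⁻¹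
      simpa using this
    have h3 := hzc _ h2
    calc (t * z * t⁻¹) * a ^ k = t * (z * (t⁻¹ * a ^ k * t)) * t⁻¹ := by group
      _ = t * ((t⁻¹ * a ^ k * t) * z) * t⁻¹ := by rw [h3]
      _ = a ^ k * (t * z * t⁻¹) := by group
  obtain ⟨m', hm'⟩ := h.selfC.zpow hk h1
  refine h.mem hm0 (n := m') ?_
  rw [← hm]
  exact hm'

/-- No subgroup of finite index is a nontrivial direct product. -/
theorem Mal.virtProd {a : G} (h : Mal a) (H : Subgroup G) (hH : H.FiniteIndex) {A B : Type*}
    [Group A] [Group B] (e : H ≃* A × B) (hA : ∃ x : A, x ≠ 1) (hB : ∃ y : B, y ≠ 1) : False := by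
  obtain ⟨n, hn0, _, hn⟩ := Subgroup.exists_pow_mem_of_index_ne_zero hH.index_ne_zero a
  have hnz : (n : ℤ) ≠ 0 := by omega
  have key : ∀ w : H, w * ⟨a ^ n, hn⟩ = ⟨a ^ n, hn⟩ * w → ∃ m : ℤ, (w : G) = a ^ m := by
    intro w hw
    refine h.selfC.zpow hnz ?_
    have := congrArg Subtype.val hw
    simpa using this
  obtain ⟨x, y, hxy⟩ : ∃ x y, e ⟨a ^ n, hn⟩ = (x, y) := ⟨(e ⟨a ^ n, hn⟩).1, (e ⟨a ^ n, hn⟩).2, rfl⟩
  -- two nontrivial elements in different factors cannot both be powers of `a`
  have cont : ∀ (x' : A) (y' : B), x' ≠ 1 → y' ≠ 1 → (∃ m : ℤ, ((e.symm (x', 1) : H) : G) = a ^ m) →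
      (∃ m : ℤ, ((e.symm (1, y') : H) : G) = a ^ m) → False := by
    rintro x' y' hx' hy' ⟨i, hi⟩ ⟨j, hj⟩
    have hi0 : i ≠ 0 := by
      rintro rfl
      rw [zpow_zero] at hi
      have h1 : (e.symm (x', 1) : H) = 1 := Subtype.ext hi
      have h2 : ((x', 1) : A × B) = 1 := by
        have := congrArg e h1
        simpa using this
      exact hx' (congrArg Prod.fst h2)
    have hj0 : j ≠ 0 := by
      rintro rfl
      rw [zpow_zero] at hj
      have h1 : (e.symm (1, y') : H) = 1 := Subtype.ext hj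
      have h2 : ((1, y') : A × B) = 1 := by
        have := congrArg e h1
        simpa using this
      exact hy' (congrArg Prod.snd h2)
    have h3 : (e.symm (x', 1) : H) ^ j = (e.symm (1, y') : H) ^ i := by
      apply Subtype.ext
      rw [Subgroup.coe_zpow, Subgroup.coe_zpow, hi, hj, ← zpow_mul, ← zpow_mul, mul_comm]
    have h4 : ((x', 1) : A × B) ^ j = ((1, y') : A × B) ^ i := by
      have := congrArg e h3
      rw [map_zpow, map_zpow] at this
      simpa using this
    have h5 : x' ^ j = 1 := by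
      have := congrArg Prod.fst h4
      simpa using this
    have h6 : (e.symm (x', 1) : H) ^ j = 1 := by
      rw [← map_zpow]
      have : ((x', 1) : A × B) ^ j = 1 := by
        ext
        · simpa using h5
        · simp
      rw [this, map_one]
    have h7 : a ^ (i * j) = 1 := by
      have := congrArg Subtype.val h6
      rw [Subgroup.coe_zpow, hi, ← zpow_mul] at this
      simpa using this
    have := h.1 _ h7
    rcases mul_eq_zero.1 this with h8 | h8
    · exact hi0 h8
    · exact hj0 h8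
  have hcomm : ∀ p : A × B, p * (x, y) = (x, y) * p →
      ∃ m : ℤ, ((e.symm p : H) : G) = a ^ m := by
    intro p hp
    refine key _ ?_
    apply e.injective
    rw [map_mul, map_mul, hxy]
    simpa using hp
  by_cases hx : x = 1
  · by_cases hy : y = 1
    · -- then `a ^ n = 1`
      have h1 : e ⟨a ^ n, hn⟩ = 1 := by rw [hxy, hx, hy]; rfl
      have h2 : (⟨a ^ n, hn⟩ : H) = 1 := by
        apply e.injective
        rw [h1, map_one]
      have h3 : a ^ (n : ℤ) = 1 := by
        have := congrArg Subtype.val h2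
        simpa using this
      exact hnz (h.1 _ h3)
    · obtain ⟨x0, hx0⟩ := hA
      refine cont x0 y hx0 hy (hcomm (x0, 1) ?_) (hcomm (1, y) ?_)
      · rw [hx]; ext <;> simp
      · rw [hx]
  · by_cases hy : y = 1
    · obtain ⟨y0, hy0⟩ := hB
      refine cont x y0 hx hy0 (hcomm (x, 1) ?_) (hcomm (1, y0) ?_)
      · rw [hy]
      · rw [hy]; ext <;> simp
    · refine cont x y hx hy (hcomm (x, 1) ?_) (hcomm (1, y) ?_)
      · ext <;> simp
      · ext <;> simp

/-- If almost all conjugacy classes meet finitely many malnormal infinite cyclic subgroups, a normal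
subgroup `N` with nontrivial centralizer in `G` containing an element `g` whose powers lie in
infinitely many conjugacy classes exists only if `G` is infinite cyclic. -/
theorem top_of_normal {A : Set G} (hA : ∀ a ∈ A, Mal a) {E : Set (ConjClasses G)} (hE : E.Finite)
    (hcov : ∀ g : G, ConjClasses.mk g ∉ E → ∃ a ∈ A, ∃ (t : G) (m : ℤ), g = t * a ^ m * t⁻¹)
    (N : Subgroup G) (hN : N.Normal) {z : G} (hz1 : z ≠ 1) (hzc : ∀ y ∈ N, z * y = y * z)
    {g : G} (hgN : g ∈ N) (hg : (Set.range fun n : ℕ => ConjClasses.mk (g ^ n)).Infinite) :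
    ∃ a ∈ A, Subgroup.zpowers a = ⊤ := by
  obtain ⟨a, ha, t, m, hm, e⟩ := conj_into hA hE hcov hg
  refine ⟨a, ha, (hA a ha).normal N hN hz1 hzc hm ?_⟩
  have := hN.conj_mem g hgN t⁻¹
  have h2 : t⁻¹ * g * t⁻¹⁻¹ = a ^ m := by
    rw [e]; group
  rwa [h2] at this

/-- Infinitely many conjugacy classes: some `a` exists. -/
theorem exists_mem_of_infinite {A : Set G} {E : Set (ConjClasses G)} (hE : E.Finite)
    (hcov : ∀ g : G, ConjClasses.mk g ∉ E → ∃ a ∈ A, ∃ (t : G) (m : ℤ), g = t * a ^ m * t⁻¹)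
    (hinf : Infinite (ConjClasses G)) : ∃ a, a ∈ A := by
  obtain ⟨c, hc⟩ := hE.infinite_compl.nonempty
  obtain ⟨g, rfl⟩ := ConjClasses.exists_rep c
  obtain ⟨a, ha, -⟩ := hcov g hc
  exact ⟨a, ha⟩

end Vale.Agent.P216.H949
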